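import Vale.Agent.P045.Peel
import Vale.Agent.P045b.FrontR
import Vale.Agent.P045g.C61.Main

/-!
# P045: Ryser's conjecture: the intersecting case for `r = 6`, and `r = 4` with `ν ≤ 2`
-/

namespace Vale.Agent.Results.P045.A0000_Combined

universe u

/-- In both parts `edges` is a finite family of finite sets of vertices, every one of which contains
exactly one vertex of each of the `r` parts (the fibres of `part`).
(1) `r = 6`: if any two edges share a vertex, then at most `5` vertices meet all edges.
(2) `r = 4`: if every family of pairwise disjoint edges has at most `k` members, then at most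
`3 * k + (k - 2)` vertices meet all edges (truncated subtraction: `3 * k` for `k ≤ 2`,
`4 * k - 2` for `k ≥ 2`). -/
theorem result :
    (∀ (V : Type u) (part : V → Fin 6) (edges : Finset (Finset V)),
      (∀ e ∈ edges, ∀ i : Fin 6, ∃! v, v ∈ e ∧ part v = i) →
      (∀ e ∈ edges, ∀ f ∈ edges, ¬ Disjoint e f) →
      ∃ C : Finset V, C.card ≤ 5 ∧ ∀ e ∈ edges, ∃ v ∈ C, v ∈ e) ∧
    (∀ (V : Type u) (part : V → Fin 4) (edges : Finset (Finset V)),
      (∀ e ∈ edges, ∀ i : Fin 4, ∃! v, v ∈ e ∧ part v = i) →
      ∀ k : ℕ, (∀ M : Finset (Finset V), M ⊆ edges →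
        (∀ e ∈ M, ∀ f ∈ M, e ≠ f → Disjoint e f) → M.card ≤ k) →
      ∃ C : Finset V, C.card ≤ 3 * k + (k - 2) ∧ ∀ e ∈ edges, ∃ v ∈ C, v ∈ e) :=
  ⟨fun _ part edges hpart hint =>
      Vale.Agent.P045b.ryser_one (r := 6) (by norm_num) Vale.Agent.P045g.C61.par rfl rfl
        Vale.Agent.P045g.C61.core part edges hpart hint,
    fun _ part edges hpart k hmatch => Vale.Agent.P045.four_all part k edges hpart hmatch⟩

end Vale.Agent.Results.P045.A0000_Combined
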