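import Vale.Agent.P045b.FrontR
import Vale.Agent.P045g.C61.Main

/-!
# P045: the intersecting case of Ryser's conjecture for 6-partite hypergraphs
-/

namespace Vale.Agent.Results.P045.A000_RyserSixIntersecting

open Vale.Agent.P045b Vale.Agent.P045g

/-- Let `edges` be a finite family of finite sets of vertices, every one of which contains exactly
one vertex of each of the six parts (the fibres of `part`).  If any two edges share a vertex, then
at most `5` vertices meet all edges. -/
theorem result {V : Type*} (part : V → Fin 6) (edges : Finset (Finset V))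
    (hpart : ∀ e ∈ edges, ∀ i : Fin 6, ∃! v, v ∈ e ∧ part v = i)
    (hint : ∀ e ∈ edges, ∀ f ∈ edges, ¬ Disjoint e f) :
    ∃ C : Finset V, C.card ≤ 5 ∧ ∀ e ∈ edges, ∃ v ∈ C, v ∈ e :=
  ryser_one (r := 6) (by norm_num) C61.par rfl rfl C61.core part edges hpart hint

end Vale.Agent.Results.P045.A000_RyserSixIntersecting
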