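import Vale.Agent.P045.Peel

/-!
# P045: covers of 4-partite hypergraphs: `τ ≤ 3 ν` for `ν ≤ 2` and `τ ≤ 4 ν - 2` for `ν ≥ 2`
-/

namespace Vale.Agent.Results.P045.A00_RyserFourAllNu

open Vale.Agent.P045

/-- Let `edges` be a finite family of finite sets of vertices, every one of which contains exactly
one vertex of each of the four parts (the fibres of `part`).  If every family of pairwise disjoint
edges has at most `k` members, then at most `3 * k + (k - 2)` vertices meet all edges
(truncated subtraction: `3 * k` for `k ≤ 2`, `4 * k - 2` for `k ≥ 2`). -/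
theorem result {V : Type*} (part : V → Fin 4) (edges : Finset (Finset V))
    (hpart : ∀ e ∈ edges, ∀ i : Fin 4, ∃! v, v ∈ e ∧ part v = i)
    (k : ℕ)
    (hmatch : ∀ M : Finset (Finset V), M ⊆ edges →
      (∀ e ∈ M, ∀ f ∈ M, e ≠ f → Disjoint e f) → M.card ≤ k) :
    ∃ C : Finset V, C.card ≤ 3 * k + (k - 2) ∧ ∀ e ∈ edges, ∃ v ∈ C, v ∈ e :=
  four_all part k edges hpart hmatch

end Vale.Agent.Results.P045.A00_RyserFourAllNu
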