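import Vale.Agent.P045.Glue
import Vale.Agent.P045.C41.Main
import Vale.Agent.P045.C42.Main

/-!
# P045: Ryser's conjecture for 4-partite hypergraphs with matching number at most 2
-/

namespace Vale.Agent.Results.P045.A0_RyserFourTwo

open Vale.Agent.P045

/-- Let `edges` be a finite family of finite sets of vertices, every one of which contains exactly
one vertex of each of the four parts (the fibres of `part`).  If `k ≤ 2` and every family of pairwise
disjoint edges has at most `k` members, then at most `3 * k` vertices meet all edges. -/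
theorem result {V : Type*} (part : V → Fin 4) (edges : Finset (Finset V))
    (hpart : ∀ e ∈ edges, ∀ i : Fin 4, ∃! v, v ∈ e ∧ part v = i)
    (k : ℕ) (hk : k ≤ 2)
    (hmatch : ∀ M : Finset (Finset V), M ⊆ edges →
      (∀ e ∈ M, ∀ f ∈ M, e ≠ f → Disjoint e f) → M.card ≤ k) :
    ∃ C : Finset V, C.card ≤ 3 * k ∧ ∀ e ∈ edges, ∃ v ∈ C, v ∈ e := by
  classical
  let H : PartiteHypergraph 4 V := ⟨part, edges, hpart⟩
  have hnu : H.nu ≤ k := by
    refine csSup_le ⟨0, ∅, ⟨Finset.empty_subset _, ?_⟩, rfl⟩ ?_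
    · intro e he
      exact absurd he (Finset.notMem_empty e)
    · rintro n ⟨M, hM, rfl⟩
      exact hmatch M hM.1 hM.2
  have htau : H.tau ≤ 3 * H.nu :=
    H.tau_le_of_core (coreTwo_of (P := C41.par) rfl rfl C41.core)
      (coreThree_of (P := C42.par) rfl rfl C42.core) (hnu.trans hk)
  have hne : {n | ∃ C : Finset V, H.IsCover C ∧ C.card = n}.Nonempty := by
    refine ⟨_, edges.biUnion id, ?_, rfl⟩
    intro e he
    obtain ⟨v, hv⟩ := H.edge_nonempty he
    exact ⟨v, Finset.mem_biUnion.2 ⟨e, he, hv⟩, hv⟩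
  obtain ⟨C, hC, hcard⟩ := Nat.sInf_mem hne
  refine ⟨C, ?_, hC⟩
  have h1 : C.card = H.tau := hcard
  rw [h1]
  exact htau.trans (Nat.mul_le_mul_left 3 hnu)

end Vale.Agent.Results.P045.A0_RyserFourTwo
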